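import Vale.Agent.P109.Main

open MeasureTheory

namespace Vale.Agent.Results.P109.Odometer

open Vale.Agent.P109

/-- Every adding machine has a smooth area preserving model on the two-torus. The maps `c n` are
the coordinates of the point in the inverse limit of the cyclic groups `ZMod (q n)`. -/
theorem result {X : Type} [MeasurableSpace X] [StandardBorelSpace X] (μ : Measure X)
    [IsProbabilityMeasure μ] (T : X → X) (hT : MeasurePreserving T μ μ) (q : ℕ → ℕ)
    (hq : ∀ n, 0 < q n) (hd : ∀ n, q n ∣ q (n + 1)) (hu : ∀ N, ∃ n, N < q n)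
    (c : ∀ n, X → ZMod (q n)) (hc : ∀ n, Measurable (c n)) (hs : ∀ n x, c n (T x) = c n x + 1)
    (hcomp : ∀ n x, ZMod.castHom (hd n) (ZMod (q n)) (c (n + 1) x) = c n x)
    (hsep : ∀ x y, (∀ n, c n x = c n y) → x = y) : HasSmoothTorusModel μ T :=
  odometer_model μ T hT q hq hd hu c hc hs hcomp hsep

end Vale.Agent.Results.P109.Odometer
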